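import Vale.Agent.H90.KTV.Defs
import Vale.Agent.H90.KTV.Basic
import Vale.Agent.H12.BipModel
import Vale.Agent.H12.GapCore

/-!
# Bridge from the all-matrices Poincare inequality to the class form

The Poincare inequality for column swaps on all Boolean matrices (hypothesis `hmain`) gives the
inequality `2 * ∑ f ^ 2 ≤ ∑ f * lapB f` for mean-zero functions on each class of matrices with
prescribed margins.
-/

namespace Vale.Agent.H79

open Vale.Agent.H90 Finset
open Vale.Agent.H12.Bip

set_option linter.unusedSectionVars false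

variable {R C : Type} [Fintype R] [DecidableEq R] [Fintype C] [DecidableEq C]

/-- The switch relation is symmetric. -/
theorem bSwitch_symm {M M' : R → C → Bool} (h : BSwitch M M') : BSwitch M' M := by
  obtain ⟨i, j, x, y, hij, hxy, h1, h2, h3, h4, rfl⟩ := h
  refine ⟨i, j, y, x, hij, hxy.symm, ?_, ?_, ?_, ?_, ?_⟩
  · simp [Vale.Agent.H12.Bip.flip, h3]
  · simp [Vale.Agent.H12.Bip.flip, h4]
  · simp [Vale.Agent.H12.Bip.flip, h1]
  · simp [Vale.Agent.H12.Bip.flip, h2]
  · funext a b
    simp only [Vale.Agent.H12.Bip.flip]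
    by_cases hc : (a = i ∨ a = j) ∧ (b = y ∨ b = x)
    · have hc' : (a = i ∨ a = j) ∧ (b = x ∨ b = y) := ⟨hc.1, hc.2.symm⟩
      simp [hc, hc']
    · have hc' : ¬ ((a = i ∨ a = j) ∧ (b = x ∨ b = y)) := fun h => hc ⟨h.1, h.2.symm⟩
      simp [hc, hc']

/-- A margin-preserving column swap in two rows that changes the matrix: the two columns,
restricted to the two rows, form a permutation pattern. -/
theorem colSwap_pattern {i j : R} (hij : i ≠ j) {x y : C} {M : R → C → Bool}
    (hs : SameMarg M (colSwap {i, j} x y M)) (hne : colSwap {i, j} x y M ≠ M) :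
    x ≠ y ∧ M i x ≠ M i y ∧ M j x ≠ M j y ∧ M j x = M i y := by
  have hxy : x ≠ y := by
    rintro rfl
    exact hne (colSwap_self _ _ _)
  -- some entry changes
  obtain ⟨a, ha⟩ := Function.ne_iff.mp hne
  obtain ⟨b, hb⟩ := Function.ne_iff.mp ha
  have haS : a ∈ ({i, j} : Finset R) := by
    by_contra hcon
    exact ha (colSwap_apply_not_mem hcon)
  rw [colSwap_apply_mem haS] at hb
  have hax : M a x ≠ M a y := by
    by_cases hbx : b = x
    · subst hbx
      rw [Equiv.swap_apply_left] at hb
      exact fun h => hb h.symm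
    · by_cases hby : b = y
      · subst hby
        rw [Equiv.swap_apply_right] at hb
        exact hb
      · rw [Equiv.swap_apply_of_ne_of_ne hbx hby] at hb
        exact absurd rfl hb
  -- column sums
  have key : ∀ g : R → ℕ, ∑ a, g a = ∑ a ∈ univ \ {i, j}, g a + (g i + g j) := by
    intro g
    rw [← Finset.sum_pair hij, Finset.sum_sdiff (subset_univ _)]
  have hcol := hs.2 x
  rw [colSum_eq_sum, colSum_eq_sum, key, key] at hcol
  have hrest : ∑ a ∈ univ \ {i, j}, (if M a x = true then 1 else 0 : ℕ)
      = ∑ a ∈ univ \ {i, j}, (if colSwap {i, j} x y M a x = true then 1 else 0 : ℕ) := by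
    refine Finset.sum_congr rfl fun a ha => ?_
    rw [mem_sdiff] at ha
    rw [colSwap_apply_not_mem ha.2]
  rw [hrest] at hcol
  have hi' : colSwap {i, j} x y M i x = M i y := by
    rw [colSwap_apply_mem (by simp), Equiv.swap_apply_left]
  have hj' : colSwap {i, j} x y M j x = M j y := by
    rw [colSwap_apply_mem (by simp), Equiv.swap_apply_left]
  rw [hi', hj'] at hcol
  have hcol' : (if M i x = true then 1 else 0 : ℕ) + (if M j x = true then 1 else 0)
      = (if M i y = true then 1 else 0) + (if M j y = true then 1 else 0) := by omega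
  have haij : a = i ∨ a = j := by simpa using haS
  refine ⟨hxy, ?_, ?_, ?_⟩
  · rcases haij with rfl | rfl
    · exact hax
    · cases h1 : M i x <;> cases h2 : M i y <;> cases h3 : M a x <;> cases h4 : M a y <;>
        simp_all
  · rcases haij with rfl | rfl
    · cases h1 : M a x <;> cases h2 : M a y <;> cases h3 : M j x <;> cases h4 : M j y <;>
        simp_all
    · exact hax
  · rcases haij with rfl | rfl
    · cases h1 : M a x <;> cases h2 : M a y <;> cases h3 : M j x <;> cases h4 : M j y <;>
        simp_all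
    · cases h1 : M i x <;> cases h2 : M i y <;> cases h3 : M a x <;> cases h4 : M a y <;>
        simp_all

/-- In the situation of `colSwap_pattern` the column swap is a flip. -/
theorem colSwap_eq_flip {i j : R} {x y : C} {M : R → C → Bool}
    (hxy : x ≠ y) (hi : M i x ≠ M i y) (hj : M j x ≠ M j y) :
    colSwap {i, j} x y M = Vale.Agent.H12.Bip.flip M i j x y := by
  funext a b
  by_cases ha : a = i ∨ a = j
  · have ha' : a ∈ ({i, j} : Finset R) := by simpa using ha
    rw [colSwap_apply_mem ha']
    have hax : M a x ≠ M a y := by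
      rcases ha with rfl | rfl
      · exact hi
      · exact hj
    by_cases hbx : b = x
    · subst hbx
      rw [Equiv.swap_apply_left]
      simp only [Vale.Agent.H12.Bip.flip, ha, true_or, and_self, if_true]
      cases h1 : M a b <;> cases h2 : M a y <;> simp_all
    · by_cases hby : b = y
      · subst hby
        rw [Equiv.swap_apply_right]
        simp only [Vale.Agent.H12.Bip.flip, ha, or_true, and_self, if_true]
        cases h1 : M a x <;> cases h2 : M a b <;> simp_all
      · rw [Equiv.swap_apply_of_ne_of_ne hbx hby]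
        simp [Vale.Agent.H12.Bip.flip, hbx, hby]
  · have ha' : a ∉ ({i, j} : Finset R) := by simpa using ha
    rw [colSwap_apply_not_mem ha']
    simp [Vale.Agent.H12.Bip.flip, ha]

/-- A margin-preserving column swap in two rows that changes the matrix is a switch. -/
theorem bSwitch_colSwap {i j : R} (hij : i ≠ j) {x y : C} {M : R → C → Bool}
    (hs : SameMarg M (colSwap {i, j} x y M)) (hne : colSwap {i, j} x y M ≠ M) :
    BSwitch M (colSwap {i, j} x y M) := by
  obtain ⟨hxy, hi, hj, hji⟩ := colSwap_pattern hij hs hne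
  cases h1 : M i x
  · -- `M i x = false`: pattern in columns `y, x`
    refine ⟨i, j, y, x, hij, hxy.symm, ?_, ?_, h1, ?_, ?_⟩
    · cases h2 : M i y <;> simp_all
    · cases h2 : M i y <;> cases h3 : M j x <;> simp_all
    · cases h2 : M i y <;> cases h3 : M j x <;> cases h4 : M j y <;> simp_all
    · rw [colSwap_comm]
      exact colSwap_eq_flip hxy.symm (fun h => hi h.symm) (fun h => hj h.symm)
  · refine ⟨i, j, x, y, hij, hxy, h1, ?_, ?_, ?_, ?_⟩
    · cases h2 : M i y <;> cases h3 : M j x <;> cases h4 : M j y <;> simp_all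
    · cases h2 : M i y <;> simp_all
    · cases h2 : M i y <;> cases h3 : M j x <;> simp_all
    · exact colSwap_eq_flip hxy hi hj

/-- The rows changed by the column swap. -/
theorem rows_of_colSwap {i j : R} {x y : C} {M : R → C → Bool}
    (hi : M i x ≠ M i y) (hj : M j x ≠ M j y) (a : R) :
    colSwap {i, j} x y M a ≠ M a ↔ a = i ∨ a = j := by
  constructor
  · intro h
    by_contra hcon
    have ha' : a ∉ ({i, j} : Finset R) := by simpa using hcon
    exact h (colSwap_apply_not_mem ha')
  · intro ha h
    have ha' : a ∈ ({i, j} : Finset R) := by simpa using ha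
    have h1 := congrFun h x
    rw [colSwap_apply_mem ha', Equiv.swap_apply_left] at h1
    rcases ha with rfl | rfl
    · exact hi h1.symm
    · exact hj h1.symm

/-- The columns changed by the column swap. -/
theorem cols_of_colSwap {i j : R} {x y : C} {M : R → C → Bool}
    (hi : M i x ≠ M i y) (b : C) :
    (∃ a, colSwap {i, j} x y M a b ≠ M a b) ↔ b = x ∨ b = y := by
  constructor
  · rintro ⟨a, h⟩
    by_contra hcon
    push Not at hcon
    apply h
    by_cases ha : a ∈ ({i, j} : Finset R)
    · rw [colSwap_apply_mem ha, Equiv.swap_apply_of_ne_of_ne hcon.1 hcon.2]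
    · rw [colSwap_apply_not_mem ha]
  · intro hb
    refine ⟨i, ?_⟩
    rw [colSwap_apply_mem (by simp)]
    rcases hb with rfl | rfl
    · rw [Equiv.swap_apply_left]
      exact fun h => hi h.symm
    · rw [Equiv.swap_apply_right]
      exact hi

/-- At most four tuples produce a given matrix different from `M`. -/
theorem card_tuples_le (M M' : R → C → Bool) (hne : M' ≠ M) :
    (univ.filter (fun p : (R × R) × (C × C) => p.1.1 ≠ p.1.2 ∧
      SameMarg M (colSwap {p.1.1, p.1.2} p.2.1 p.2.2 M) ∧
      colSwap {p.1.1, p.1.2} p.2.1 p.2.2 M = M')).card ≤ 4 := by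
  classical
  set S := univ.filter (fun p : (R × R) × (C × C) => p.1.1 ≠ p.1.2 ∧
      SameMarg M (colSwap {p.1.1, p.1.2} p.2.1 p.2.2 M) ∧
      colSwap {p.1.1, p.1.2} p.2.1 p.2.2 M = M') with hS
  rcases S.eq_empty_or_nonempty with h0 | ⟨p0, hp0⟩
  · rw [h0]; simp
  · rw [hS, mem_filter] at hp0
    obtain ⟨-, h0ij, h0s, h0e⟩ := hp0
    obtain ⟨h0xy, h0i, h0j, -⟩ := colSwap_pattern h0ij h0s (h0e ▸ hne)
    have hsub : S ⊆ ({(p0.1.1, p0.1.2), (p0.1.2, p0.1.1)} : Finset (R × R)) ×ˢ
        ({(p0.2.1, p0.2.2), (p0.2.2, p0.2.1)} : Finset (C × C)) := by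
      intro p hp
      rw [hS, mem_filter] at hp
      obtain ⟨-, hij, hs, he⟩ := hp
      obtain ⟨hxy, hi, hj, -⟩ := colSwap_pattern hij hs (he ▸ hne)
      have hrow : ∀ a, (a = p.1.1 ∨ a = p.1.2) ↔ (a = p0.1.1 ∨ a = p0.1.2) := by
        intro a
        rw [← rows_of_colSwap hi hj a, ← rows_of_colSwap h0i h0j a, he, h0e]
      have hcol : ∀ b, (b = p.2.1 ∨ b = p.2.2) ↔ (b = p0.2.1 ∨ b = p0.2.2) := by
        intro b
        rw [← cols_of_colSwap (j := p.1.2) hi b, ← cols_of_colSwap (j := p0.1.2) h0i b, he, h0e]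
      have r1 := (hrow p.1.1).mp (Or.inl rfl)
      have r2 := (hrow p.1.2).mp (Or.inr rfl)
      have c1 := (hcol p.2.1).mp (Or.inl rfl)
      have c2 := (hcol p.2.2).mp (Or.inr rfl)
      rw [mem_product, mem_insert, mem_singleton, mem_insert, mem_singleton]
      constructor
      · rcases r1 with r1 | r1 <;> rcases r2 with r2 | r2
        · exact absurd (r1.trans r2.symm) hij
        · left; exact Prod.ext r1 r2
        · right; exact Prod.ext r1 r2
        · exact absurd (r1.trans r2.symm) hij
      · rcases c1 with c1 | c1 <;> rcases c2 with c2 | c2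
        · exact absurd (c1.trans c2.symm) hxy
        · left; exact Prod.ext c1 c2
        · right; exact Prod.ext c1 c2
        · exact absurd (c1.trans c2.symm) hxy
    calc S.card ≤ _ := card_le_card hsub
      _ = _ := card_product _ _
      _ ≤ 2 * 2 := Nat.mul_le_mul card_le_two card_le_two

/-- Membership in the class with margins `r, c`. -/
def InClass (r : R → ℕ) (c : C → ℕ) (G : R → C → Bool) : Prop :=
  (∀ i, (univ.filter (fun x => G i x = true)).card = r i) ∧
    (∀ x, (univ.filter (fun i => G i x = true)).card = c x)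

instance instDecInClass (r : R → ℕ) (c : C → ℕ) (G : R → C → Bool) :
    Decidable (InClass r c G) := by
  unfold InClass; infer_instance

theorem inClass_of_sameMarg {r : R → ℕ} {c : C → ℕ} {G H : R → C → Bool}
    (hG : InClass r c G) (hs : SameMarg G H) : InClass r c H :=
  ⟨fun i => (hs.1 i).symm.trans (hG.1 i), fun x => (hs.2 x).symm.trans (hG.2 x)⟩

theorem sameMarg_of_inClass {r : R → ℕ} {c : C → ℕ} {G H : R → C → Bool}
    (hG : InClass r c G) (hH : InClass r c H) : SameMarg G H :=
  ⟨fun i => (hG.1 i).trans (hH.1 i).symm, fun x => (hG.2 x).trans (hH.2 x).symm⟩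

/-- Extension by zero of a function on the class. -/
noncomputable def ext0 (r : R → ℕ) (c : C → ℕ) (f : BOmega r c → ℝ) (G : R → C → Bool) : ℝ :=
  if h : InClass r c G then f (Subtype.mk G h) else 0

theorem ext0_val (r : R → ℕ) (c : C → ℕ) (f : BOmega r c → ℝ) (M : BOmega r c) :
    ext0 r c f M.1 = f M := by
  have h : InClass r c M.1 := M.2
  rw [ext0, dif_pos h]
  rfl

theorem ext0_of_not (r : R → ℕ) (c : C → ℕ) (f : BOmega r c → ℝ) {G : R → C → Bool}
    (h : ¬ InClass r c G) : ext0 r c f G = 0 := by
  rw [ext0, dif_neg h]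

/-- A sum over all matrices of a function supported on the class. -/
theorem sum_class (r : R → ℕ) (c : C → ℕ) (g : (R → C → Bool) → ℝ)
    (hg : ∀ G, ¬ InClass r c G → g G = 0) :
    ∑ G, g G = ∑ M : BOmega r c, g M.1 := by
  symm
  apply Finset.sum_of_injOn (fun M : BOmega r c => M.1)
  · intro a _ b _ hab
    exact Subtype.ext hab
  · intro a _
    exact mem_coe.mpr (mem_univ _)
  · intro G _ hG
    apply hg
    intro hin
    exact hG ⟨Subtype.mk G hin, mem_coe.mpr (mem_univ _), rfl⟩
  · intro M _
    rfl

/-- The bridge: the Poincare inequality for column swaps on all Boolean matrices gives the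
spectral gap inequality `2 * ∑ f ^ 2 ≤ ∑ f * lapB f` on every class with prescribed margins. -/
theorem bip_gap_of_main {R C : Type} [Fintype R] [DecidableEq R] [Fintype C] [DecidableEq C]
    (hmain : ∀ f : (R → C → Bool) → ℝ,
      16 * ∑ G, (f G - avgRel SameMarg f G) ^ 2 ≤
        ∑ G, ∑ i, ∑ j, (if i ≠ j then ∑ x, ∑ y,
          (if SameMarg G (colSwap {i, j} x y G) then (f G - f (colSwap {i, j} x y G)) ^ 2 else 0)
          else 0))
    (r : R → ℕ) (c : C → ℕ) (f : Vale.Agent.H12.Bip.BOmega r c → ℝ) (hf : ∑ M, f M = 0) :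
    2 * ∑ M, f M ^ 2 ≤ ∑ M, f M * Vale.Agent.H12.Bip.lapB r c f M := by
  classical
  set F := ext0 r c f with hF
  have h := hmain F
  -- left side
  have hL : ∑ G, (F G - avgRel SameMarg F G) ^ 2 = ∑ M : BOmega r c, f M ^ 2 := by
    have havg : ∀ G, avgRel SameMarg F G = 0 := by
      intro G
      unfold avgRel
      have hnum : ∑ y ∈ univ.filter (fun y => SameMarg G y), F y = 0 := by
        by_cases hG : InClass r c G
        · rw [Finset.sum_filter]
          rw [sum_class r c (fun y => if SameMarg G y then F y else 0)]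
          · rw [← hf]
            refine Finset.sum_congr rfl fun M _ => ?_
            rw [if_pos (sameMarg_of_inClass hG M.2), hF, ext0_val]
          · intro y hy
            rw [hF, ext0_of_not r c f hy]
            simp
        · apply Finset.sum_eq_zero
          intro y hy
          rw [mem_filter] at hy
          rw [hF]
          apply ext0_of_not
          intro hy'
          exact hG (inClass_of_sameMarg hy' (sameMarg_symm hy.2))
      rw [hnum, zero_div]
    rw [sum_class r c (fun G => (F G - avgRel SameMarg F G) ^ 2)]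
    · refine Finset.sum_congr rfl fun M _ => ?_
      rw [havg, sub_zero, hF, ext0_val]
    · intro G hG
      rw [havg, sub_zero, hF, ext0_of_not r c f hG]
      simp
  -- right side: matrices outside the class do not contribute
  have hR0 : ∀ G, ¬ InClass r c G → (∑ i, ∑ j, (if i ≠ j then ∑ x, ∑ y,
      (if SameMarg G (colSwap {i, j} x y G) then (F G - F (colSwap {i, j} x y G)) ^ 2 else 0)
      else 0)) = 0 := by
    intro G hG
    apply Finset.sum_eq_zero
    intro i _
    apply Finset.sum_eq_zero
    intro j _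
    split_ifs with hij
    · apply Finset.sum_eq_zero
      intro x _
      apply Finset.sum_eq_zero
      intro y _
      split_ifs with hs
      · have h1 : F G = 0 := ext0_of_not r c f hG
        have h2 : F (colSwap {i, j} x y G) = 0 :=
          ext0_of_not r c f (fun h' => hG (inClass_of_sameMarg h' (sameMarg_symm hs)))
        rw [h1, h2]
        simp
      · rfl
    · rfl
  rw [hL, sum_class r c _ hR0] at h
  -- the bound for a matrix of the class
  have hM : ∀ M : BOmega r c, (∑ i, ∑ j, (if i ≠ j then ∑ x, ∑ y,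
      (if SameMarg M.1 (colSwap {i, j} x y M.1) then
        (F M.1 - F (colSwap {i, j} x y M.1)) ^ 2 else 0) else 0))
      ≤ 4 * ∑ M' : BOmega r c, (if BSwitch M.1 M'.1 then (f M - f M') ^ 2 else 0) := by
    intro M
    set t : (R × R) × (C × C) → ℝ := fun p => if p.1.1 ≠ p.1.2 then
      (if SameMarg M.1 (colSwap {p.1.1, p.1.2} p.2.1 p.2.2 M.1) then
        (F M.1 - F (colSwap {p.1.1, p.1.2} p.2.1 p.2.2 M.1)) ^ 2 else 0) else 0 with ht
    have e1 : (∑ i, ∑ j, (if i ≠ j then ∑ x, ∑ y,
        (if SameMarg M.1 (colSwap {i, j} x y M.1) then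
          (F M.1 - F (colSwap {i, j} x y M.1)) ^ 2 else 0) else 0)) = ∑ p, t p := by
      rw [Fintype.sum_prod_type, Fintype.sum_prod_type]
      refine Finset.sum_congr rfl fun i _ => Finset.sum_congr rfl fun j _ => ?_
      rw [Fintype.sum_prod_type]
      by_cases hij : i = j
      · simp [ht, hij]
      · simp [ht, hij]
    rw [e1]
    set u : (R × R) × (C × C) → BOmega r c → ℝ := fun p M' =>
      if (p.1.1 ≠ p.1.2 ∧ SameMarg M.1 (colSwap {p.1.1, p.1.2} p.2.1 p.2.2 M.1) ∧
        colSwap {p.1.1, p.1.2} p.2.1 p.2.2 M.1 = M'.1) then (f M - f M') ^ 2 else 0 with hu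
    have e2 : ∀ p, t p ≤ ∑ M', u p M' := by
      intro p
      have hnn : ∀ M' ∈ (univ : Finset (BOmega r c)), 0 ≤ u p M' := by
        intro M' _
        rw [hu]
        dsimp only
        split_ifs
        · positivity
        · exact le_rfl
      by_cases hp : p.1.1 ≠ p.1.2 ∧ SameMarg M.1 (colSwap {p.1.1, p.1.2} p.2.1 p.2.2 M.1)
      · have hin : InClass r c (colSwap {p.1.1, p.1.2} p.2.1 p.2.2 M.1) :=
          inClass_of_sameMarg M.2 hp.2
        have h1 : t p = u p (Subtype.mk _ hin) := by
          rw [ht, hu]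
          dsimp only
          rw [if_pos hp.1, if_pos hp.2, if_pos ⟨hp.1, hp.2, rfl⟩, hF, ext0_val,
            ← ext0_val r c f (Subtype.mk _ hin)]
        rw [h1]
        exact Finset.single_le_sum hnn (mem_univ _)
      · have h1 : t p = 0 := by
          rw [ht]
          dsimp only
          by_cases h2 : p.1.1 ≠ p.1.2
          · rw [if_pos h2, if_neg (fun h3 => hp ⟨h2, h3⟩)]
          · rw [if_neg h2]
        rw [h1]
        exact Finset.sum_nonneg hnn
    have e3 : ∀ M' : BOmega r c,
        ∑ p, u p M' ≤ 4 * (if BSwitch M.1 M'.1 then (f M - f M') ^ 2 else 0) := by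
      intro M'
      have hsum : ∑ p, u p M' = ((univ.filter (fun p : (R × R) × (C × C) => p.1.1 ≠ p.1.2 ∧
          SameMarg M.1 (colSwap {p.1.1, p.1.2} p.2.1 p.2.2 M.1) ∧
          colSwap {p.1.1, p.1.2} p.2.1 p.2.2 M.1 = M'.1)).card : ℝ) * (f M - f M') ^ 2 := by
        rw [hu]
        dsimp only
        rw [← Finset.sum_filter, Finset.sum_const, nsmul_eq_mul]
      rw [hsum]
      by_cases hMM : M'.1 = M.1
      · have hMM' : M' = M := Subtype.ext hMM
        rw [hMM', sub_self]
        split_ifs <;> simp
      · rcases (univ.filter (fun p : (R × R) × (C × C) => p.1.1 ≠ p.1.2 ∧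
          SameMarg M.1 (colSwap {p.1.1, p.1.2} p.2.1 p.2.2 M.1) ∧
          colSwap {p.1.1, p.1.2} p.2.1 p.2.2 M.1 = M'.1)).eq_empty_or_nonempty with h0 | ⟨p0, hp0⟩
        · rw [h0]
          simp only [card_empty, Nat.cast_zero, zero_mul]
          split_ifs
          · positivity
          · simp
        · rw [mem_filter] at hp0
          obtain ⟨-, h0ij, h0s, h0e⟩ := hp0
          have hsw : BSwitch M.1 M'.1 := by
            rw [← h0e]
            exact bSwitch_colSwap h0ij h0s (h0e ▸ hMM)
          rw [if_pos hsw]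
          have hc := card_tuples_le M.1 M'.1 hMM
          have hc' : ((univ.filter (fun p : (R × R) × (C × C) => p.1.1 ≠ p.1.2 ∧
              SameMarg M.1 (colSwap {p.1.1, p.1.2} p.2.1 p.2.2 M.1) ∧
              colSwap {p.1.1, p.1.2} p.2.1 p.2.2 M.1 = M'.1)).card : ℝ) ≤ 4 := by
            exact_mod_cast hc
          exact mul_le_mul_of_nonneg_right hc' (sq_nonneg _)
    calc ∑ p, t p ≤ ∑ p, ∑ M', u p M' := Finset.sum_le_sum fun p _ => e2 p
      _ = ∑ M', ∑ p, u p M' := Finset.sum_comm
      _ ≤ ∑ M', 4 * (if BSwitch M.1 M'.1 then (f M - f M') ^ 2 else 0) :=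
          Finset.sum_le_sum fun M' _ => e3 M'
      _ = 4 * ∑ M', (if BSwitch M.1 M'.1 then (f M - f M') ^ 2 else 0) := by
          rw [Finset.mul_sum]
  -- the Dirichlet form
  have hD : ∑ M : BOmega r c, ∑ M' : BOmega r c,
      (if BSwitch M.1 M'.1 then (f M - f M') ^ 2 else 0)
      = 2 * ∑ M, f M * lapB r c f M := by
    have h1 := Vale.Agent.H12.GapCore.inner_lap_self
      (fun M M' : BOmega r c => BSwitch M.1 M'.1) (fun M M' hh => bSwitch_symm hh) f
    have e : ∀ M, Vale.Agent.H12.GapCore.lap (fun M M' : BOmega r c => BSwitch M.1 M'.1) f M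
        = lapB r c f M := fun M => rfl
    simp only [e] at h1
    rw [h1]
    ring
  have hfin : 16 * ∑ M : BOmega r c, f M ^ 2 ≤ 4 * (2 * ∑ M, f M * lapB r c f M) := by
    refine le_trans h ?_
    rw [← hD, Finset.mul_sum]
    exact Finset.sum_le_sum fun M _ => hM M
  linarith

end Vale.Agent.H79
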